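import Vale.Agent.P331.H316.Rows
import Vale.Agent.P331.H250.Ker
import Vale.Agent.P331.H514.Q2
import Vale.Agent.P331.H568.Q1

/-!
# Row QJ: the zero gap inequality for thinnings

Also: the bridge between `thin` and `TH`, the union of two thinnings, and row SPLIT.
-/

set_option autoImplicit false
set_option linter.unusedSectionVars false
set_option linter.unusedVariables false

namespace Vale.Agent.P331.H454

open Finset Vale.Agent.P331.H489 Vale.Agent.P331.H316
open scoped Classical

section tools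

variable {E L C : Type} [Fintype E] [Fintype L] [DecidableEq L] [Fintype C] [DecidableEq C]

/-- a deterministic law -/
theorem EX_pure (a : E → L) (F : (E → L) → ℝ) :
    EX (fun e l => if l = a e then (1 : ℝ) else 0) F = F a := by
  unfold EX
  rw [sum_eq_single a]
  · simp
  · intro b _ hb
    obtain ⟨e, he⟩ := Function.ne_iff.1 hb
    rw [prod_eq_zero (mem_univ e) (if_neg he), zero_mul]
  · intro h
    exact absurd (mem_univ _) h

/-- pushing labels forward, the map depends on the coordinate -/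
theorem EX_map (w : E → L → ℝ) (g : E → L → C) (F : (E → C) → ℝ) :
    EX w (fun ω => F (fun e => g e (ω e))) =
      EX (fun e c => ∑ l, w e l * (if c = g e l then (1 : ℝ) else 0)) F := by
  have h := H250.EX_KR w (fun e l c => if c = g e l then (1 : ℝ) else 0) F
  rw [← h]
  refine H250.EX_congr (fun _ _ => rfl) fun ω => ?_
  exact (EX_pure (fun e => g e (ω e)) F).symm

theorem thin_eq_TH (τ : ℝ) (S : Finset E) (F : Finset E → ℝ) :
    thin τ S F = H250.TH (fun _ => τ) S F := by
  have h := EX_map (E := E) (fun _ : E => tw τ) (fun e b => (decide (e ∈ S) && b))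
    (fun b => F (H250.tset b))
  have h1 : thin τ S F = EX (fun _ : E => tw τ) (fun ω => F (H250.tset
      fun e => (decide (e ∈ S) && ω e))) := by
    unfold thin
    refine H250.EX_congr (fun _ _ => rfl) fun ω => ?_
    congr 1
    ext e
    simp [H250.mem_tset]
  rw [h1, h]
  unfold H250.TH
  refine H250.EX_congr (fun e b => ?_) fun _ => rfl
  rw [Fintype.sum_bool]
  by_cases he : e ∈ S <;> cases b <;> simp [tw, H250.bw, he]

theorem thin_nonneg {τ : ℝ} (h0 : 0 ≤ τ) (h1 : τ ≤ 1) (S : Finset E) {F : Finset E → ℝ}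
    (h : ∀ N, 0 ≤ F N) : 0 ≤ thin τ S F :=
  EX_nonneg (fun _ b => by cases b <;> simp [tw] <;> linarith) fun _ => h _

theorem thin_mono {τ : ℝ} (h0 : 0 ≤ τ) (h1 : τ ≤ 1) (S : Finset E) {F G : Finset E → ℝ}
    (h : ∀ N, F N ≤ G N) : thin τ S F ≤ thin τ S G :=
  EX_mono (fun _ b => by cases b <;> simp [tw] <;> linarith) fun _ => h _

theorem thin_add (τ : ℝ) (S : Finset E) (F G : Finset E → ℝ) :
    thin τ S (fun N => F N + G N) = thin τ S F + thin τ S G := EX_add _ _ _

theorem thin_sub (τ : ℝ) (S : Finset E) (F G : Finset E → ℝ) :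
    thin τ S (fun N => F N - G N) = thin τ S F - thin τ S G := EX_sub _ _ _

theorem thin_const (τ : ℝ) (S : Finset E) (c : ℝ) : thin τ S (fun _ => c) = c :=
  EX_one _ (fun _ => by simp [tw]) c

theorem ind_nonneg (P : Prop) : 0 ≤ ind P := by
  unfold ind
  split_ifs <;> norm_num

theorem ind_le_one (P : Prop) : ind P ≤ 1 := by
  unfold ind
  split_ifs <;> norm_num

theorem ind_true {P : Prop} (h : P) : ind P = 1 := if_pos h

theorem ind_false {P : Prop} (h : ¬ P) : ind P = 0 := if_neg h

theorem thin_le_one {τ : ℝ} (h0 : 0 ≤ τ) (h1 : τ ≤ 1) (S : Finset E) {F : Finset E → ℝ}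
    (h : ∀ N, F N ≤ 1) : thin τ S F ≤ 1 :=
  (thin_mono h0 h1 S h).trans (thin_const τ S 1).le

/-- the union of two exclusive thinnings -/
theorem thin_thin_union {g n m : ℝ} (h : g + (1 - g) * m = n) (S : Finset E)
    (F : Finset E → ℝ) :
    thin g S (fun G => thin m (S \ G) fun N => F (G ∪ N)) = thin n S F := by
  simp only [thin_eq_TH]
  exact H250.TH_TH_union _ _ _ S (fun _ _ => h) F

theorem mem_cls {κ : E → L} {l : L} {e : E} : e ∈ cls κ l ↔ κ e = l := by simp [cls]

theorem sum_L5 (f : L5 → ℝ) : ∑ l, f l = f .v + f .h + f .r + f .i + f .o := by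
  have h : (univ : Finset L5) = {.v, .h, .r, .i, .o} := rfl
  rw [h, sum_insert (by decide), sum_insert (by decide), sum_insert (by decide),
    sum_insert (by decide), sum_singleton]
  ring

theorem w4_nonneg {p x s : ℝ} (hp : 0 ≤ p) (hx : 0 ≤ x) (hs : 0 ≤ s) (h : p + x + s ≤ 1)
    (l : L4) : 0 ≤ w4 p x s l := by
  cases l <;> simp only [w4] <;> linarith

theorem w5_nonneg {p h r s : ℝ} (hp : 0 ≤ p) (hh : 0 ≤ h) (hr : 0 ≤ r) (hs : 0 ≤ s)
    (hsum : p + h + r + s ≤ 1) (l : L5) : 0 ≤ w5' p h r s l := by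
  cases l <;> simp only [w5'] <;> linarith

theorem sum_w4 (p x s : ℝ) : ∑ l, w4 p x s l = 1 := by
  rw [sum_L4]
  simp only [w4]
  ring

theorem sum_w5 (p h r s : ℝ) : ∑ l, w5' p h r s l = 1 := by
  rw [sum_L5]
  simp only [w5']
  ring

/-- a pool inside the sample is an exclusive label -/
theorem split (p s₁ s₂ g : ℝ) (F : Finset E → Finset E → Finset E → Finset E → ℝ) :
    PR p s₁ s₂ (fun V R I => thin g R fun H => F V H (R \ H) I) =
      PR5 p (s₁ * g) (s₁ * (1 - g)) s₂ F := by
  let f : L4 × Bool → L5 := fun x => match x with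
    | (.v, _) => .v
    | (.s, true) => .h
    | (.s, false) => .r
    | (.i, _) => .i
    | (.o, _) => .o
  unfold PR PR5 thin
  rw [← EX_prod (fun _ : E => w4 p s₁ s₂) (fun _ : E => tw g) (fun κ c =>
    F (cls κ .v) ((cls κ .s).filter fun e => c e = true)
      (cls κ .s \ (cls κ .s).filter fun e => c e = true) (cls κ .i))]
  have h := EX_push (E := E) f (fun _ (x : L4 × Bool) => w4 p s₁ s₂ x.1 * tw g x.2)
    (fun κ => F (cls κ .v) (cls κ .h) (cls κ .r) (cls κ .i))
  refine Eq.trans ?_ (h.trans ?_)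
  · refine H250.EX_congr (fun _ _ => rfl) fun ω => ?_
    have e1 : cls (fun e => (ω e).1) L4.v = cls (f ∘ ω) L5.v := by
      ext e
      simp only [mem_cls, Function.comp]
      rcases ω e with ⟨a, b⟩
      cases a <;> cases b <;> simp [f]
    have e2 : (cls (fun e => (ω e).1) L4.s).filter (fun e => (ω e).2 = true) =
        cls (f ∘ ω) L5.h := by
      ext e
      simp only [mem_cls, Function.comp, mem_filter]
      rcases ω e with ⟨a, b⟩
      cases a <;> cases b <;> simp [f]
    have e3 : cls (fun e => (ω e).1) L4.s \ (cls (fun e => (ω e).1) L4.s).filter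
        (fun e => (ω e).2 = true) = cls (f ∘ ω) L5.r := by
      ext e
      simp only [mem_cls, Function.comp, mem_filter, mem_sdiff]
      rcases ω e with ⟨a, b⟩
      cases a <;> cases b <;> simp [f]
    have e4 : cls (fun e => (ω e).1) L4.i = cls (f ∘ ω) L5.i := by
      ext e
      simp only [mem_cls, Function.comp]
      rcases ω e with ⟨a, b⟩
      cases a <;> cases b <;> simp [f]
    rw [e1, e3, e2, e4]
  · refine H250.EX_congr (fun e c => ?_) fun _ => rfl
    rw [sum_filter, Fintype.sum_prod_type, sum_L4]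
    simp only [Fintype.sum_bool]
    cases c <;> simp [f, w4, w5', tw] <;> ring

end tools

/-- Row SPLIT. -/
theorem rowSPLIT : RowSPLIT := fun E _ p s₁ s₂ g F => split p s₁ s₂ g F

section qj

variable {E : Type} [Fintype E]

/-- deleting the fresh elements -/
def del : L5 → L5
  | .v => .o
  | .h => .h
  | .r => .r
  | .i => .i
  | .o => .o

/-- the price of keeping a fresh element -/
noncomputable def cost : L5 → ℝ
  | .v => 16
  | _ => 1

/-- the noise: a sample element becomes fresh with probability `θ`, otherwise it is deleted -/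
noncomputable def kap5 (θ : ℝ) : L5 → L5 → ℝ
  | .r => fun l => match l with
    | .v => θ
    | .o => 1 - θ
    | _ => 0
  | .v => fun l => if l = .v then 1 else 0
  | .h => fun l => if l = .h then 1 else 0
  | .i => fun l => if l = .i then 1 else 0
  | .o => fun l => if l = .o then 1 else 0

theorem kap5_nonneg {θ : ℝ} (h0 : 0 ≤ θ) (h1 : θ ≤ 1) (l l' : L5) : 0 ≤ kap5 θ l l' := by
  cases l <;> cases l' <;> simp [kap5] <;> linarith

theorem kap5_sum (θ : ℝ) (l : L5) : ∑ l', kap5 θ l l' = 1 := by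
  rw [sum_L5]
  cases l <;> simp [kap5]

theorem cost_pos (l : L5) : 0 < cost l := by
  cases l <;> simp [cost]

/-- the natural law after the noise -/
noncomputable def nu5 (h r s θ : ℝ) : L5 → ℝ
  | .v => r * θ
  | .h => h
  | .r => 0
  | .i => s
  | .o => 1 - r * θ - h - s

theorem one5 {p h r s θ ε : ℝ} (hr : 0 ≤ r) (hp : p = r * ε) (h0 : 0 ≤ θ)
    (hθ : θ ≤ 1 / 2) (hε : 0 ≤ ε) (hεθ : ε ≤ θ / 10) :
    H514.One cost del 3 1 (w5' p h r s) (kap5 θ) (kap5 (θ - ε)) (nu5 h r s θ) := by
  intro b x hb hx hbd hxd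
  have h1 := hbd .v
  have h2 := hxd .v
  simp only [del] at h1 h2
  have hq := H568.qpair (θ := θ) (ε := ε) (bX := b .v) (bO := b .o) (xX := x .v) (xO := x .o)
    (lam := 16) h0 hθ hε hεθ le_rfl (hb _) h1 (hx _).le h2 (fun h => absurd h (hx _).ne')
    (fun h => absurd h (hx _).ne')
  have hq' := mul_le_mul_of_nonneg_left hq hr
  rw [sum_L5, sum_L5]
  simp only [sum_L5, kap5, del, cost, w5', nu5, if_true, one_mul, zero_mul, zero_add,
    add_zero, min_self, reduceCtorEq, if_false, pow_one]
  rw [min_comm (16 * x .v)]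
  have e1 : (1 : ℝ) - (θ - ε) = 1 - θ + ε := by ring
  rw [e1]
  set A := b .v ^ (3 + 1) / min (x .o) (16 * x .v) with hA
  set B := ((θ - ε) * b .v + (1 - θ + ε) * b .o) ^ (3 + 1) / (θ * x .v + (1 - θ) * x .o) with hB
  have hq2 : r * (ε * A + B) ≤ r * (θ * (b .v ^ (3 + 1) / x .v) +
      (1 - θ + ε) * (b .o ^ (3 + 1) / x .o)) := hq'
  rw [hp]
  nlinarith [hq2]

/-- the averages after the noise are thinnings -/
theorem KE_kap5 (θ : ℝ) (φ : (E → L5) → ℝ) (τ : E → L5) :
    H514.KE (fun _ => kap5 θ) φ τ = EX (fun _ : E => tw θ) (fun c => φ fun e =>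
      if τ e = .r then (if c e = true then .v else .o) else τ e) := by
  rw [EX_map (fun _ : E => tw θ) (fun e b => if τ e = .r then (if b = true then L5.v else L5.o)
    else τ e) φ]
  unfold H514.KE
  refine H250.EX_congr (fun e l => ?_) fun _ => rfl
  rw [Fintype.sum_bool]
  cases h : τ e <;> cases l <;> simp [kap5, tw]

/-- the indicator of a high inner failure probability -/
noncomputable def phi5 (D : Finset E → Prop) (t e : ℝ) (τ : E → L5) : ℝ :=
  ind (e < psi D t (cls τ .i) (cls τ .v ∪ cls τ .h))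

theorem KE_phi5 (D : Finset E → Prop) (t e θ : ℝ) (ω : E → L5) (Y : Finset E)
    (hY : Y ⊆ cls ω .v) :
    H514.KE (fun _ => kap5 θ) (phi5 D t e) (fun a => if a ∈ Y then ω a else del (ω a)) =
      thin θ (cls ω .r) fun N => ind (e < psi D t (cls ω .i) (Y ∪ cls ω .h ∪ N)) := by
  rw [KE_kap5]
  unfold thin phi5
  refine H250.EX_congr (fun _ _ => rfl) fun c => ?_
  set τ : E → L5 := fun a => if a ∈ Y then ω a else del (ω a) with hτ
  set τ' : E → L5 := fun a => if τ a = .r then (if c a = true then .v else .o) else τ a with hτ'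
  have hv : ∀ a ∈ Y, ω a = .v := fun a ha => mem_cls.1 (hY ha)
  have e1 : cls τ' .i = cls ω .i := by
    ext a
    simp only [mem_cls, hτ', hτ]
    by_cases ha : a ∈ Y
    · simp [ha, hv a ha]
    · simp only [ha, if_false]
      cases h : ω a <;> cases c a <;> simp [del]
  have e2 : cls τ' .v ∪ cls τ' .h = Y ∪ cls ω .h ∪ (cls ω .r).filter fun a => c a = true := by
    ext a
    simp only [mem_cls, mem_union, mem_filter, hτ', hτ]
    by_cases ha : a ∈ Y
    · simp [ha, hv a ha]
    · simp only [ha, if_false]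
      cases h : ω a <;> cases c a <;> simp [del]
  rw [e1, e2]

theorem psi_mono {D : Finset E → Prop} (hD : Up D) {t : ℝ} (h0 : 0 ≤ t) (h1 : t ≤ 1)
    (I : Finset E) {U W : Finset E} (h : U ⊆ W) : psi D t I W ≤ psi D t I U := by
  refine thin_mono h0 h1 I fun N => ?_
  by_cases hU : D (U ∪ N)
  · rw [ind_false (not_not.2 (hD _ _ (union_subset_union h subset_rfl) hU))]
    exact ind_nonneg _
  · rw [ind_true hU]
    exact ind_le_one _

theorem phi5_mono {D : Finset E → Prop} (hD : Up D) {t : ℝ} (h0 : 0 ≤ t) (h1 : t ≤ 1) (e : ℝ)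
    (ω : E → L5) (a : E) :
    phi5 D t e ω ≤ phi5 D t e (Function.update ω a (del (ω a))) := by
  unfold phi5
  have e1 : cls (Function.update ω a (del (ω a))) .i = cls ω .i := by
    ext b
    simp only [mem_cls]
    by_cases hb : b = a
    · subst hb
      rw [Function.update_self]
      cases ω b <;> simp [del]
    · rw [Function.update_of_ne hb]
  have e2 : cls (Function.update ω a (del (ω a))) .v ∪ cls (Function.update ω a (del (ω a))) .h ⊆
      cls ω .v ∪ cls ω .h := by
    intro b
    simp only [mem_cls, mem_union]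
    by_cases hb : b = a
    · subst hb
      rw [Function.update_self]
      cases ω b <;> simp [del]
    · rw [Function.update_of_ne hb]
      exact id
  rw [e1]
  have h2 := psi_mono hD h0 h1 (cls ω .i) e2
  by_cases h : e < psi D t (cls ω .i) (cls ω .v ∪ cls ω .h)
  · rw [ind_true h, ind_true (h.trans_le h2)]
  · rw [ind_false h]
    exact ind_nonneg _

/-- the event: the fresh set `X` has a small subset which works together with the pool `G` and the
noise of rate `θ`, but `X` itself does not work with the noise of rate `θ - ε` -/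
def evq (D : Finset E → Prop) (t e θ θ' lam' β : ℝ) (kap : ℕ) (X G R I : Finset E) : Prop :=
  (∃ Y ⊆ X, Y.card ≤ kap ∧ thin θ R (fun N => ind (e < psi D t I (Y ∪ G ∪ N))) ≤ lam') ∧
    β ≤ thin θ' R fun N => ind (e < psi D t I (X ∪ G ∪ N))

theorem evq_bound {D : Finset E → Prop} (hD : Up D) {p h r s t e θ ε lam' β : ℝ} {kap : ℕ}
    (hp0 : 0 ≤ p) (hh : 0 ≤ h) (hr : 0 ≤ r) (hs : 0 ≤ s) (hsum : p + h + r + s ≤ 1)
    (hp : p = r * ε) (h0 : 0 ≤ θ) (hθ : θ ≤ 1 / 2) (hε : 0 ≤ ε) (hεθ : ε ≤ θ / 10)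
    (ht0 : 0 ≤ t) (ht1 : t ≤ 1) (hl : 0 ≤ lam') (hβ : 0 < β) :
    PR5 p h r s (fun X G R I => ind (evq (E := E) D t e θ (θ - ε) lam' β kap X G R I)) ≤
      16 ^ kap * lam' / β ^ 4 := by
  have hw : ∀ (a : E) (l : L5), 0 ≤ w5' p h r s l := fun _ l => w5_nonneg hp0 hh hr hs hsum l
  have hν : ∀ (a : E) (l : L5), 0 ≤ nu5 h r s θ l := by
    intro _ l
    have h1 : r * θ ≤ r := mul_le_of_le_one_right hr (by linarith)
    have h2 : 0 ≤ r * θ := mul_nonneg hr h0
    cases l <;> simp only [nu5] <;> linarith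
  have hm := H514.tens_markov (E := E) (c := cost) (d := del) (m := 3) (s := 1) cost_pos
    (fun _ => w5' p h r s) (fun _ => kap5 θ) (fun _ => kap5 (θ - ε)) (fun _ => nu5 h r s θ)
    hw hν (fun _ => kap5_nonneg h0 (by linarith)) (fun _ => kap5_sum θ)
    (fun _ => kap5_nonneg (by linarith) (by linarith)) (fun _ => kap5_sum _)
    (fun _ => one5 hr hp h0 hθ hε hεθ) (phi5 D t e) (fun _ => ind_nonneg _)
    (phi5_mono hD ht0 ht1 e)
    (fun ω => evq D t e θ (θ - ε) lam' β kap (cls ω .v) (cls ω .h) (cls ω .r) (cls ω .i))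
    (α := 16 ^ kap * lam') (β := β) (by positivity) hβ.le (by
      rintro ω ⟨⟨Y, hY, hk, h3⟩, h4⟩
      constructor
      · have h5 := KE_phi5 D t e (θ - ε) ω (cls ω .v) subset_rfl
        have h6 : (fun a => if a ∈ cls ω .v then ω a else del (ω a)) = ω := by
          funext a
          by_cases ha : a ∈ cls ω .v
          · rw [if_pos ha]
          · rw [if_neg ha]
            rw [mem_cls] at ha
            cases h7 : ω a <;> simp_all [del]
        rw [h6] at h5
        rw [h5]
        exact h4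
      · refine ⟨Y, ?_⟩
        rw [KE_phi5 D t e θ ω Y hY]
        have h5 : (∏ a, if a ∈ Y then cost (ω a) else 1) = 16 ^ Y.card := by
          rw [prod_ite_mem, univ_inter]
          rw [prod_congr rfl (g := fun _ => (16 : ℝ)) fun a ha => by
            rw [mem_cls.1 (hY ha)]; rfl]
          rw [prod_const]
        rw [h5]
        have h6 : (16 : ℝ) ^ Y.card ≤ 16 ^ kap := pow_le_pow_right₀ (by norm_num) hk
        exact mul_le_mul h6 h3 (thin_nonneg h0 (by linarith) _ fun _ => ind_nonneg _)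
          (by positivity))
  have h1 : EX (fun _ : E => nu5 h r s θ) (fun ω => phi5 D t e ω ^ 3) ≤ 1 := by
    refine (EX_mono hν fun ω => pow_le_one₀ (ind_nonneg _) (ind_le_one _)).trans ?_
    rw [EX_one]
    intro _
    rw [sum_L5]
    simp only [nu5]
    ring
  have h2 : EX (fun _ : E => w5' p h r s) (fun ω => if evq D t e θ (θ - ε) lam' β kap
      (cls ω .v) (cls ω .h) (cls ω .r) (cls ω .i) then (1 : ℝ) else 0) =
      PR5 p h r s (fun X G R I => ind (evq (E := E) D t e θ (θ - ε) lam' β kap X G R I)) := rfl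
  rw [h2] at hm
  rw [le_div_iff₀ (by positivity)]
  have h3 : (16 ^ kap * lam') ^ 1 * EX (fun _ : E => nu5 h r s θ)
      (fun ω => phi5 D t e ω ^ 3) ≤ 16 ^ kap * lam' := by
    rw [pow_one]
    exact mul_le_of_le_one_right (by positivity) h1
  have h4 := hm.trans h3
  have h5 : (3 + 1 : ℕ) = 4 := rfl
  rw [h5] at h4
  linarith

end qj

/-- Row QJ. -/
theorem rowQJ : RowQJ := by
  intro E _ D hD s₁ s₂ g n t e lam' zet' β kap hs1 hs2 hs hg hg4 hn hn4 hgn ht0 ht1 hl hz hβ
  have g1 : 0 < 1 - g := by linarith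
  have g2 : 0 < 1 - 2 * g := by linarith
  set θ := n * (1 - g) / (1 - 2 * g) with hθ
  set g' := g / (1 - g) with hg'
  set ε := g / (1 - 2 * g) with hε
  have hθ0 : 0 ≤ θ := by positivity
  have hθ1 : θ ≤ 1 / 2 := by
    rw [hθ, div_le_iff₀ g2]
    nlinarith
  have hε0 : 0 ≤ ε := by positivity
  have hg'0 : 0 ≤ g' := by positivity
  have hg'1 : g' ≤ 1 := by
    rw [hg', div_le_one g1]
    linarith
  have a1 : θ * (1 - 2 * g) = n * (1 - g) := div_mul_cancel₀ _ g2.ne'
  have a2 : ε * (1 - 2 * g) = g := div_mul_cancel₀ _ g2.ne'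
  have a3 : g' * (1 - g) = g := div_mul_cancel₀ _ g1.ne'
  have a4 : (1 - g) * (1 - g') = 1 - 2 * g := by linarith
  have hun : g' + (1 - g') * (θ - ε) = n := by
    refine mul_right_cancel₀ g1.ne' ?_
    calc (g' + (1 - g') * (θ - ε)) * (1 - g) = g' * (1 - g) +
          ((1 - g) * (1 - g')) * θ - ((1 - g) * (1 - g')) * ε := by ring
      _ = g + θ * (1 - 2 * g) - ε * (1 - 2 * g) := by rw [a3, a4]; ring
      _ = n * (1 - g) := by rw [a1, a2]; ring
  have hw : ∀ (a : E) (l : L4), 0 ≤ w4 (s₁ * g) (s₁ * (1 - g)) s₂ l := fun _ l =>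
    w4_nonneg (by positivity) (by positivity) hs2 (by nlinarith) l
  -- pointwise
  have key : ∀ X R I : Finset E, ind (BB D g' θ t e lam' zet' kap R I X) * fl D n t e R I X ≤
      (zet' + β) + thin g' R fun G => ind (evq D t e θ (θ - ε) lam' β kap X G (R \ G) I) := by
    intro X R I
    have h0 : 0 ≤ thin g' R fun G => ind (evq D t e θ (θ - ε) lam' β kap X G (R \ G) I) :=
      thin_nonneg hg'0 hg'1 R fun _ => ind_nonneg _
    by_cases hB : BB D g' θ t e lam' zet' kap R I X
    swap
    · rw [ind_false hB, zero_mul]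
      linarith
    rw [ind_true hB, one_mul]
    have h1 : fl D n t e R I X = thin g' R fun G => thin (θ - ε) (R \ G) fun N =>
        ind (e < psi D t I (X ∪ G ∪ N)) := by
      unfold fl
      rw [← thin_thin_union hun R]
      simp only [union_assoc]
    have h2 : ∀ G : Finset E, (thin (θ - ε) (R \ G) fun N => ind (e < psi D t I (X ∪ G ∪ N))) ≤
        ((1 - ind (bb D θ t e lam' kap R I X G)) + β) +
          ind (evq D t e θ (θ - ε) lam' β kap X G (R \ G) I) := by
      intro G
      have h3 : (thin (θ - ε) (R \ G) fun N => ind (e < psi D t I (X ∪ G ∪ N))) ≤ 1 :=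
        thin_le_one (by linarith) (by linarith) _ fun _ => ind_le_one _
      have h4 := ind_nonneg (evq D t e θ (θ - ε) lam' β kap X G (R \ G) I)
      by_cases h5 : bb D θ t e lam' kap R I X G
      · rw [ind_true h5]
        by_cases h6 : β ≤ thin (θ - ε) (R \ G) fun N => ind (e < psi D t I (X ∪ G ∪ N))
        · have h7 : evq D t e θ (θ - ε) lam' β kap X G (R \ G) I := ⟨h5, h6⟩
          rw [ind_true h7]
          linarith
        · push Not at h6
          linarith
      · rw [ind_false h5]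
        linarith
    rw [h1]
    refine (thin_mono hg'0 hg'1 R h2).trans ?_
    rw [thin_add, thin_add, thin_sub, thin_const, thin_const]
    have h8 : 1 - zet' ≤ thin g' R fun G => ind (bb D θ t e lam' kap R I X G) := hB
    linarith
  have h1 : PR (E := E) (s₁ * g) (s₁ * (1 - g)) s₂ (fun X R I =>
      ind (BB D g' θ t e lam' zet' kap R I X) * fl D n t e R I X) ≤
      (zet' + β) + PR5 (s₁ * g) (s₁ * (1 - g) * g') (s₁ * (1 - g) * (1 - g')) s₂
        (fun X G R I => ind (evq (E := E) D t e θ (θ - ε) lam' β kap X G R I)) := by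
    rw [← split (s₁ * g) (s₁ * (1 - g)) s₂ g'
      (fun X G R I => ind (evq (E := E) D t e θ (θ - ε) lam' β kap X G R I))]
    have h2 : PR (E := E) (s₁ * g) (s₁ * (1 - g)) s₂ (fun _ _ _ => zet' + β) = zet' + β := by
      unfold PR
      exact EX_one _ (fun _ => sum_w4 _ _ _) _
    refine le_trans ?_ (le_of_eq (congrArg (· + _) h2))
    unfold PR
    rw [← EX_add]
    exact EX_mono hw fun ω => key _ _ _
  refine h1.trans ?_
  have h3 := evq_bound (E := E) (D := D) hD (p := s₁ * g) (h := s₁ * (1 - g) * g')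
    (r := s₁ * (1 - g) * (1 - g')) (s := s₂) (t := t) (e := e) (θ := θ) (ε := ε) (lam' := lam')
    (β := β) (kap := kap) (by positivity) (by positivity)
    (mul_nonneg (by positivity) (by linarith)) hs2 (by nlinarith)
    (by
      calc s₁ * g = s₁ * (ε * (1 - 2 * g)) := by rw [a2]
        _ = s₁ * (ε * ((1 - g) * (1 - g'))) := by rw [a4]
        _ = s₁ * (1 - g) * (1 - g') * ε := by ring) hθ0 hθ1 hε0 hgn ht0 ht1 hl hβ
  linarith

end Vale.Agent.P331.H454
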