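import Vale.Agent.P331.H454.Small
import Vale.Agent.P331.H316.HC
import Vale.Agent.P331.H316.CH
import Vale.Agent.P331.H379.RowJST
import Vale.Agent.P331.H250.Core
import Vale.Agent.P331.H923.Step
import Vale.Agent.P331.F.Sock

/-!
# Assembly of line A
-/

set_option autoImplicit false

namespace Vale.Agent.P331.H454

open Finset Vale.Agent.P331.H489 Vale.Agent.P331.H316
open scoped Classical ENNReal

theorem rowCORE : RowCORE := H250.rowCORE rowHC rowBES

theorem rowSTEP : RowSTEP := H923.rowSTEP rowSPLIT H379.rowJST rowMK rowQJ rowDROP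

/-- the numbers and the rule are all that is missing -/
theorem main_of (hSUM : RowSUM) (hRULE : RowRULE) : F.Main := by
  obtain ⟨p, s₁, s₂, P, hG⟩ := hSUM rowONE rowCORE rowSTEP rowCH
  exact ⟨p / 2, half_pos hG.1, fun E _ M hM => hRULE p s₁ s₂ P hG rowENT E M hM⟩

end Vale.Agent.P331.H454
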