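import Vale.Agent.P331.H454.RowQJ
import Vale.Agent.P331.H619.Transfer
import Vale.Agent.P331.H901.HCs
import Vale.Agent.P331.H830.Bes
import Vale.Agent.P331.H250.Drop

/-!
# Rows MK, DROP, BES, ENT, ONE of line A
-/

set_option autoImplicit false
set_option linter.unusedSectionVars false
set_option linter.unusedVariables false

namespace Vale.Agent.P331.H454

open Finset Vale.Agent.P331.H489 Vale.Agent.P331.H316
open scoped Classical

/-- Row DROP. -/
theorem rowDROP : RowDROP := by
  intro E _ D hD P R I j K ht0 ht1 hg0 hg1 hn0 hn1 hdl _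
  obtain ⟨st, h1, h2⟩ := H250.drop D hD P R I j K ht0 ht1 hg0 hg1 hn0 hn1 hdl
  exact ⟨st, h1, fun U hU W _ hc hr => h2 U hU W hc hr⟩

/-- Row MK. -/
theorem rowMK : RowMK := by
  intro E _ D g n t e lam zet lam' zet' kap hg hg2 hn hng ht0 ht1 hl hz hl' hz' R I A hB
  have g1 : 0 < 1 - g := by linarith
  have h := H619.transfer R (γ := g) (ν := n * (1 - g)) hg (by linarith)
    (mul_nonneg hn g1.le) hng (fun Y G N => ind (e < psi D t I (Y ∪ G ∪ N)))
    (fun _ _ _ => ind_nonneg _) (fun Y => Y ⊆ A ∧ Y.card ≤ kap)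
    (fun G => bb D n t e lam kap R I A G) (t := lam) (t' := lam') (τ := zet) (a := zet') hl hl' hz'
    (by
      rintro G _ ⟨Y, hY, hk, h1⟩
      refine ⟨Y, ⟨hY, hk⟩, ?_⟩
      have e1 : n * (1 - g) / (1 - g) = n := mul_div_cancel_right₀ n g1.ne'
      rw [e1, ← thin_eq_TH]
      exact h1)
    (by
      rw [← thin_eq_TH]
      have h1 : 1 - zet ≤ thin g R fun G => ind (bb D n t e lam kap R I A G) := hB
      have h2 : (thin g R fun G => H619.ic (¬ bb D n t e lam kap R I A G)) =
          thin g R (fun G => 1 - ind (bb D n t e lam kap R I A G)) := by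
        congr 1
        funext G
        exact H619.ic_not _
      rw [h2, thin_sub, thin_const]
      linarith)
  rw [← thin_eq_TH] at h
  refine le_trans (le_of_eq ?_) h
  congr 1
  funext H
  show ind _ = H619.ic _
  refine congrArg (fun P : Prop => (if P then (1 : ℝ) else 0)) ?_
  refine congrArg Not ?_
  unfold BB
  rw [← thin_eq_TH]
  refine congrArg (fun x : ℝ => 1 - zet' ≤ x) ?_
  congr 1
  funext G
  refine congrArg (fun P : Prop => (if P then (1 : ℝ) else 0)) ?_
  refine propext ⟨?_, ?_⟩
  · rintro ⟨Y, hY, hk, h1⟩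
    refine ⟨Y, ⟨hY, hk⟩, ?_⟩
    rw [← thin_eq_TH]
    exact h1
  · rintro ⟨Y, ⟨hY, hk⟩, h1⟩
    refine ⟨Y, hY, hk, ?_⟩
    rw [← thin_eq_TH] at h1
    exact h1

section bes

variable {E : Type} [Fintype E]

theorem bw_eq_tw (Θ : ℝ) : (H830.bw fun _ : E => Θ) = fun _ : E => tw Θ := by
  funext e b
  rfl

theorem Jn_eq (D : Finset E → Prop) (Θ : ℝ) (b : E) :
    H316.Jn D Θ b = EX (fun _ : E => tw Θ) fun ω : E → Bool =>
      ind (Piv D b (univ.filter fun e => ω e = true)) := rfl

theorem filter_update_true (ω : E → Bool) (b : E) :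
    (univ.filter fun e => Function.update ω b true e = true) =
      insert b (univ.filter fun e => ω e = true) := by
  ext e
  by_cases h : e = b
  · subst h
    simp
  · simp [h]

theorem filter_update_false (ω : E → Bool) (b : E) :
    (univ.filter fun e => Function.update ω b false e = true) =
      (univ.filter fun e => ω e = true).erase b := by
  ext e
  by_cases h : e = b
  · subst h
    simp
  · simp [h]

end bes

/-- Row BES. -/
theorem rowBES : RowBES := by
  intro E _ D hD Θ h0 h1
  have h := H830.bessel (q := fun _ : E => Θ) (fun _ => h0) (fun _ => h1)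
    (fun ω => ind (D (univ.filter fun e => ω e = true)))
  have h2 : ∀ b : E, H830.dif (fun ω => ind (D (univ.filter fun e => ω e = true))) b =
      fun ω => ind (Piv D b (univ.filter fun e => ω e = true)) := by
    intro b
    funext ω
    unfold H830.dif Piv
    beta_reduce
    rw [filter_update_true, filter_update_false]
    by_cases h3 : D (insert b (univ.filter fun e => ω e = true))
    · by_cases h4 : D ((univ.filter fun e => ω e = true).erase b)
      · rw [ind_true h3, ind_true h4, ind_false (fun h => h.2 h4)]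
        ring
      · rw [ind_true h3, ind_false h4, ind_true ⟨h3, h4⟩]
        ring
    · have h4 : ¬ D ((univ.filter fun e => ω e = true).erase b) := fun h =>
        h3 (hD _ _ ((erase_subset _ _).trans (subset_insert _ _)) h)
      rw [ind_false h3, ind_false h4, ind_false (fun h => h3 h.1)]
      ring
  simp only [h2, bw_eq_tw, ← Jn_eq] at h
  rw [← mul_sum] at h
  refine h.trans ?_
  have h5 : EX (fun _ : E => tw Θ) (fun ω => ind (D (univ.filter fun e => ω e = true)) ^ 2) ≤
      1 := by
    refine (EX_mono (fun _ b => by cases b <;> simp [tw] <;> linarith) (G := fun _ => 1)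
      fun ω => pow_le_one₀ (ind_nonneg _) (ind_le_one _)).trans (le_of_eq ?_)
    exact EX_one _ (fun _ => by simp [tw]) 1
  nlinarith [sq_nonneg (EX (fun _ : E => tw Θ)
    (fun ω : E → Bool => ind (D (univ.filter fun e => ω e = true))))]

/-- Row ENT for a matroid on the whole type. -/
theorem ent_univ {E : Type} [Fintype E] (M : Matroid E) (hM : M.E = Set.univ)
    (lt : E → E → Prop) [hlt : IsStrictTotalOrder E lt] {Θ : ℝ} (h0 : 0 ≤ Θ) (h1 : Θ ≤ 1) (b : E) :
    Θ * ∑ z ∈ univ.erase b, H316.Jn (fun U => cov M lt z fun e => e ∈ U) Θ b ≤ 1 := by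
  have h := H830.entrance (M := M) (lt := lt) hM hlt (q := fun _ : E => Θ) (fun _ => h0)
    (fun _ => h1) b
  have h2 : ∀ z : E, EX (H830.bw fun _ : E => Θ) (fun ω => if H830.piv M lt z b
      (fun e => ω e = true) then 1 else 0) =
      H316.Jn (fun U => cov M lt z fun e => e ∈ U) Θ b := by
    intro z
    rw [bw_eq_tw, Jn_eq]
    refine H250.EX_congr (fun _ _ => rfl) fun ω => ?_
    show (if _ then (1 : ℝ) else 0) = if _ then 1 else 0
    refine congrArg (fun P : Prop => (if P then (1 : ℝ) else 0)) (propext ?_)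
    unfold H830.piv Piv
    have e1 : (fun e => e ∈ insert b (univ.filter fun e => ω e = true)) =
        fun e => e = b ∨ ω e = true := by
      funext e
      simp
    have e2 : (fun e => e ∈ (univ.filter fun e => ω e = true).erase b) =
        fun e => e ≠ b ∧ ω e = true := by
      funext e
      simp
    beta_reduce
    rw [e1, e2]
  simp only [h2] at h
  rw [← mul_sum] at h
  refine le_trans (mul_le_mul_of_nonneg_left ?_ h0) h
  refine sum_le_sum_of_subset_of_nonneg (erase_subset _ _) fun z _ _ => ?_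
  exact thin_nonneg h0 h1 _ fun _ => ind_nonneg _

/-- Row ENT. -/
theorem rowENT : RowENT := by
  intro E _ M lt hlt Θ h0 h1 b
  refine le_trans (mul_le_mul_of_nonneg_left (sum_le_sum fun z _ => ?_) h0)
    (ent_univ (M.restrict Set.univ) rfl lt h0 h1 b)
  refine thin_mono h0 h1 _ fun U => ?_
  by_cases hz : z ∈ M.E
  · refine le_of_eq (congrArg (fun P : Prop => (if P then (1 : ℝ) else 0)) (propext ?_))
    have hc : ∀ P : E → Prop, cov M lt z P ↔ cov (M.restrict Set.univ) lt z P := by
      intro P
      unfold cov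
      rw [Matroid.restrict_closure_eq']
      simp [hz]
    unfold Piv
    simp only [hc]
  · rw [ind_false]
    · exact ind_nonneg _
    · intro h
      have h2 : z ∈ M.closure {e | lt z e ∧ e ∈ insert b U} := h.1
      exact hz (M.closure_subset_ground _ h2)

/-- Row ONE. -/
theorem rowONE : RowONE := by
  intro q hq
  obtain ⟨q, rfl⟩ : ∃ k, q = k + 1 := ⟨q - 1, by omega⟩
  have hq1 : (1 : ℝ) ≤ (q : ℝ) + 1 := by
    have : (0 : ℝ) ≤ (q : ℝ) := Nat.cast_nonneg q
    linarith
  have hq2 : (1 : ℝ) ≤ ((q : ℝ) + 1) ^ 2 := one_le_pow₀ hq1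
  set t : ℝ := 1 / (64 * ((q : ℝ) + 1) ^ 2) with ht
  have ht0 : 0 < t := by positivity
  have ht1 : t * (64 * ((q : ℝ) + 1) ^ 2) = 1 := by
    rw [ht]
    field_simp
  have ht2 : t ≤ 1 / 64 := by nlinarith
  set x₀ : ℝ := min (1 / 100) (min ((t / 4) ^ (q + 1) / 8) (t / (16 * ((q : ℝ) + 1)))) with hx₀
  have hA : 0 < (t / 4) ^ (q + 1) / 8 := by positivity
  have hB : 0 < t / (16 * ((q : ℝ) + 1)) := by positivity
  refine ⟨t, ht0, by linarith, x₀, lt_min (by norm_num) (lt_min hA hB), min_le_left _ _, 16 / t,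
    by positivity, ?_⟩
  intro x p th hx hx1 hp hp1 hth hth1 hC a b ha hb
  have hx2 : x ≤ 1 / 100 := hx1.trans (min_le_left _ _)
  have hp2 : p ≤ 1 / 100 := hp1.trans (min_le_left _ _)
  have hx3 : x ≤ (t / 4) ^ (q + 1) / 8 := hx1.trans ((min_le_right _ _).trans (min_le_left _ _))
  have hp3 : p ≤ (t / 4) ^ (q + 1) / 8 := hp1.trans ((min_le_right _ _).trans (min_le_left _ _))
  have hx4 : x ≤ t / (16 * ((q : ℝ) + 1)) :=
    hx1.trans ((min_le_right _ _).trans (min_le_right _ _))
  have hx5 : x * (16 * ((q : ℝ) + 1)) ≤ t := by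
    rwa [le_div_iff₀ (by positivity)] at hx4
  have hTh : t / 4 ≤ x + 1 / 4 * t := by linarith
  have hpow : (t / 4) ^ (q + 1) ≤ (x + 1 / 4 * t) ^ (q + 1) :=
    pow_le_pow_left₀ (by positivity) hTh _
  have hC' : 16 * p ≤ (1 - th) * t := by
    have := mul_le_mul_of_nonneg_right hC ht0.le
    have e : 16 / t * p * t = 16 * p := by
      field_simp
    linarith
  have h := H901.hc_scalar (q := q) (x := x) (s := 1 / 4) (t := t) (p := p) (κ := 1 - th)
    (Θ := x + 1 / 4 * t) hx (by norm_num) ht0.le hp (by linarith) (by linarith) rfl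
    (by positivity) (by linarith) (by linarith) (by nlinarith) (by nlinarith) (by linarith)
    (by nlinarith) (by linarith) a b ha hb
  have e1 : (1 : ℝ) - (1 - th) = th := by ring
  rw [e1] at h
  have e2 : 1 - p - x - 1 / 4 = 1 - x - 1 / 4 - p := by ring
  rw [e2]
  exact h

end Vale.Agent.P331.H454
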